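import Mathlib.Analysis.SpecialFunctions.SmoothTransition
import Mathlib.Analysis.SpecialFunctions.Trigonometric.Deriv
import Mathlib.Analysis.SpecialFunctions.Trigonometric.Basic
import Mathlib.Analysis.Calculus.IteratedDeriv.Lemmas
import Mathlib.Analysis.Calculus.FDeriv.Mul
import Mathlib.Topology.Algebra.Module.FiniteDimension
import Mathlib.Analysis.Normed.Group.Bounded

/-!
# P088, zone B1: lattice partition with squares

`fi`: one dimensional, `∑_k fi (t - k)² = 1`.  `Pr a k t = ∏_j fi^(a_j) (t_j - k_j)`.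
-/

open Set Filter
open scoped ContDiff Topology

noncomputable section

namespace Vale.Agent.P088.R2.H858.B1

/-! ## One dimension -/

/-- The one dimensional function. -/
def fi (t : ℝ) : ℝ :=
  Real.sin (Real.pi / 2 * Real.smoothTransition (1 + t)) *
    Real.cos (Real.pi / 2 * Real.smoothTransition t)

theorem fi_smooth : ContDiff ℝ ∞ fi := by
  have h1 : ContDiff ℝ ∞ fun t : ℝ => Real.pi / 2 * Real.smoothTransition (1 + t) :=
    contDiff_const.mul (Real.smoothTransition.contDiff.comp (contDiff_const.add contDiff_id))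
  have h2 : ContDiff ℝ ∞ fun t : ℝ => Real.pi / 2 * Real.smoothTransition t :=
    contDiff_const.mul Real.smoothTransition.contDiff
  exact (Real.contDiff_sin.comp h1).mul (Real.contDiff_cos.comp h2)

theorem fi_zero {t : ℝ} (h : 1 ≤ |t|) : fi t = 0 := by
  unfold fi
  rcases le_abs.1 h with h | h
  · rw [Real.smoothTransition.one_of_one_le h, mul_one, Real.cos_pi_div_two, mul_zero]
  · rw [Real.smoothTransition.zero_of_nonpos (by linarith : 1 + t ≤ 0), mul_zero, Real.sin_zero,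
      zero_mul]

theorem fi_sq {t : ℝ} (h0 : 0 ≤ t) (h1 : t ≤ 1) : fi t ^ 2 + fi (t - 1) ^ 2 = 1 := by
  unfold fi
  rw [Real.smoothTransition.one_of_one_le (by linarith : 1 ≤ 1 + t), add_sub_cancel,
    Real.smoothTransition.zero_of_nonpos (by linarith : t - 1 ≤ 0)]
  simp only [mul_one, mul_zero, Real.sin_pi_div_two, Real.cos_zero, one_mul]
  exact Real.cos_sq_add_sin_sq _

/-- The derivatives. -/
def Fd (m : ℕ) : ℝ → ℝ := iteratedDeriv m fi

theorem Fd_zero_fun : Fd 0 = fi := iteratedDeriv_zero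

theorem Fd_der (m : ℕ) (t : ℝ) : HasDerivAt (Fd m) (Fd (m + 1) t) t := by
  have h : DifferentiableAt ℝ (iteratedDeriv m fi) t :=
    (fi_smooth.differentiable_iteratedDeriv m (by exact_mod_cast WithTop.coe_lt_top m)) t
  have := h.hasDerivAt
  unfold Fd
  rw [iteratedDeriv_succ]
  exact this

theorem Fd_cont (m : ℕ) : Continuous (Fd m) :=
  continuous_iff_continuousAt.2 fun t => (Fd_der m t).continuousAt

theorem Fd_off (m : ℕ) {t : ℝ} (h : 1 < |t|) : Fd m t = 0 := by
  have h1 : fi =ᶠ[𝓝 t] fun _ => 0 := by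
    filter_upwards [(isOpen_lt continuous_const continuous_abs).mem_nhds h] with s hs
    exact fi_zero (le_of_lt hs)
  unfold Fd
  rw [h1.iteratedDeriv_eq m]
  cases m with
  | zero => simp
  | succ m => rw [iteratedDeriv_const]; simp

theorem Fd_bd : ∃ B : ℝ, 1 ≤ B ∧ ∀ m ≤ 2, ∀ t, |Fd m t| ≤ B := by
  have h : ∀ m, ∃ B : ℝ, ∀ t, |Fd m t| ≤ B := by
    intro m
    obtain ⟨B, hB⟩ := (isCompact_Icc (a := (-1 : ℝ)) (b := 1)).exists_bound_of_continuousOn
      (Fd_cont m).continuousOn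
    refine ⟨max B 0, fun t => ?_⟩
    by_cases ht : |t| ≤ 1
    · exact (hB t (abs_le.1 ht)).trans (le_max_left _ _)
    · rw [Fd_off m (not_le.1 ht), abs_zero]
      exact le_max_right _ _
  obtain ⟨B₀, h0⟩ := h 0
  obtain ⟨B₁, h1⟩ := h 1
  obtain ⟨B₂, h2⟩ := h 2
  refine ⟨max 1 (max B₀ (max B₁ B₂)), le_max_left _ _, fun m hm t => ?_⟩
  interval_cases m
  · exact (h0 t).trans ((le_max_left _ _).trans (le_max_right _ _))
  · exact (h1 t).trans ((le_max_left _ _).trans ((le_max_right _ _).trans (le_max_right _ _)))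
  · exact (h2 t).trans ((le_max_right _ _).trans ((le_max_right _ _).trans (le_max_right _ _)))

/-- The integers from `-M` to `M`. -/
def IM (M : ℕ) : Finset ℤ := Finset.Icc (-(M : ℤ)) M

/-- The sum of the squares is one. -/
theorem sum_fi {M : ℕ} {t : ℝ} (h : |t| < M) : ∑ k ∈ IM M, fi (t - k) ^ 2 = 1 := by
  have hj0 := Int.floor_le t
  have hj1 := Int.lt_floor_add_one t
  obtain ⟨j, hj⟩ : ∃ j : ℤ, j = ⌊t⌋ := ⟨_, rfl⟩
  rw [← hj] at hj0 hj1
  have ht := abs_lt.1 h
  have b1 : -(M : ℤ) ≤ j := by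
    have h1 : (-(M : ℤ) : ℝ) < j + 1 := by push_cast; linarith [ht.1]
    have h2 : -(M : ℤ) < j + 1 := by exact_mod_cast h1
    linarith
  have b2 : j + 1 ≤ (M : ℤ) := by
    have h1 : (j : ℝ) < (M : ℤ) := by push_cast; linarith [ht.2]
    have h2 : j < (M : ℤ) := by exact_mod_cast h1
    linarith
  have hsub : ({j, j + 1} : Finset ℤ) ⊆ IM M := by
    intro k hk
    rw [Finset.mem_insert, Finset.mem_singleton] at hk
    unfold IM
    rw [Finset.mem_Icc]
    rcases hk with rfl | rfl <;> constructor <;> linarith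
  rw [← Finset.sum_subset hsub, Finset.sum_pair (by omega)]
  · have := fi_sq (t := t - j) (by linarith) (by linarith)
    rw [show t - ((j + 1 : ℤ) : ℝ) = t - j - 1 by push_cast; ring]
    exact this
  · intro k _ hk
    rw [Finset.mem_insert, Finset.mem_singleton, not_or] at hk
    have : 1 ≤ |t - k| := by
      rcases lt_trichotomy k j with h1 | h1 | h1
      · have h2 : (k : ℝ) + 1 ≤ j := by exact_mod_cast h1
        exact le_abs.2 (Or.inl (by linarith))
      · exact absurd h1 hk.1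
      · have h3 : j + 1 < k := lt_of_le_of_ne h1 (Ne.symm hk.2)
        have h2 : (j : ℝ) + 1 + 1 ≤ k := by exact_mod_cast h3
        exact le_abs.2 (Or.inr (by linarith))
    rw [fi_zero this]
    ring

/-- The sum of the squares of the derivatives. -/
theorem sum_Fd {B : ℝ} (hB : ∀ m ≤ 2, ∀ t, |Fd m t| ≤ B) {m : ℕ} (hm : m ≤ 2) (S : Finset ℤ)
    (t : ℝ) : ∑ k ∈ S, Fd m (t - k) ^ 2 ≤ 3 * B ^ 2 := by
  have hj0 := Int.floor_le t
  have hj1 := Int.lt_floor_add_one t
  obtain ⟨j, hj⟩ : ∃ j : ℤ, j = ⌊t⌋ := ⟨_, rfl⟩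
  rw [← hj] at hj0 hj1
  have h1 : ∑ k ∈ S, Fd m (t - k) ^ 2 ≤ ∑ k ∈ S ∩ {j - 1, j, j + 1}, Fd m (t - k) ^ 2 := by
    refine le_of_eq (Finset.sum_subset Finset.inter_subset_left ?_).symm
    intro k hk hk'
    have hk2 : k ∉ ({j - 1, j, j + 1} : Finset ℤ) := fun h =>
      hk' (Finset.mem_inter.2 ⟨hk, h⟩)
    simp only [Finset.mem_insert, Finset.mem_singleton, not_or] at hk2
    have : 1 < |t - k| := by
      rcases lt_or_ge k (j - 1) with h1 | h1
      · have h2 : (k : ℝ) + 1 ≤ j - 1 := by exact_mod_cast h1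
        exact lt_abs.2 (Or.inl (by linarith))
      · have h3 : j + 1 < k := by omega
        have h2 : (j : ℝ) + 1 + 1 ≤ k := by exact_mod_cast h3
        exact lt_abs.2 (Or.inr (by linarith))
    rw [Fd_off m this]
    ring
  refine h1.trans ?_
  have h2 : ∑ k ∈ S ∩ {j - 1, j, j + 1}, Fd m (t - k) ^ 2 ≤
      ∑ _k ∈ S ∩ {j - 1, j, j + 1}, B ^ 2 := by
    refine Finset.sum_le_sum fun k _ => ?_
    rw [← sq_abs]
    exact pow_le_pow_left₀ (abs_nonneg _) (hB m hm _) 2
  refine h2.trans ?_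
  rw [Finset.sum_const, nsmul_eq_mul]
  have h3 : ((S ∩ {j - 1, j, j + 1}).card : ℝ) ≤ 3 := by
    have : (S ∩ {j - 1, j, j + 1}).card ≤ 3 :=
      (Finset.card_le_card Finset.inter_subset_right).trans Finset.card_le_three
    exact_mod_cast this
  exact mul_le_mul_of_nonneg_right h3 (sq_nonneg B)

/-! ## Products -/

variable {n : ℕ}

/-- `∏_j fi^(a_j) (t_j - k_j)`. -/
def Pr (a : Fin n → ℕ) (k : Fin n → ℤ) (t : Fin n → ℝ) : ℝ := ∏ j, Fd (a j) (t j - k j)

/-- The index set. -/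
def SM (n M : ℕ) : Finset (Fin n → ℤ) := Fintype.piFinset fun _ => IM M

theorem sum_Pr_one {M : ℕ} {t : Fin n → ℝ} (h : ∀ j, |t j| < M) :
    ∑ k ∈ SM n M, Pr 0 k t ^ 2 = 1 := by
  unfold SM Pr
  have e : ∀ k : Fin n → ℤ, (∏ j, Fd ((0 : Fin n → ℕ) j) (t j - k j)) ^ 2 =
      ∏ j, fi (t j - k j) ^ 2 := fun k => by
    rw [← Finset.prod_pow]
    simp only [Pi.zero_apply, Fd_zero_fun]
  simp only [e]
  rw [← Finset.prod_univ_sum (fun _ => IM M) fun j k => fi (t j - k) ^ 2]
  exact Finset.prod_eq_one fun j _ => sum_fi (h j)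

theorem sum_Pr_le {B : ℝ} (hB : ∀ m ≤ 2, ∀ t, |Fd m t| ≤ B) (M : ℕ) {a : Fin n → ℕ}
    (ha : ∀ j, a j ≤ 2) (t : Fin n → ℝ) :
    ∑ k ∈ SM n M, Pr a k t ^ 2 ≤ (3 * B ^ 2) ^ n := by
  unfold SM Pr
  have e : ∀ k : Fin n → ℤ, (∏ j, Fd (a j) (t j - k j)) ^ 2 =
      ∏ j, Fd (a j) (t j - k j) ^ 2 := fun k => (Finset.prod_pow _ _ _).symm
  simp only [e]
  rw [← Finset.prod_univ_sum (fun _ => IM M) fun j k => Fd (a j) (t j - k) ^ 2]
  calc ∏ j, ∑ k ∈ IM M, Fd (a j) (t j - k) ^ 2 ≤ ∏ _j : Fin n, 3 * B ^ 2 :=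
        Finset.prod_le_prod (fun j _ => Finset.sum_nonneg fun k _ => sq_nonneg _)
          fun j _ => sum_Fd hB (ha j) (IM M) (t j)
    _ = (3 * B ^ 2) ^ n := by rw [Finset.prod_const, Finset.card_univ, Fintype.card_fin]

section der

variable {E : Type*} [NormedAddCommGroup E] [NormedSpace ℝ E] (L : E →L[ℝ] (Fin n → ℝ))

theorem Pr_smooth (k : Fin n → ℤ) : ContDiff ℝ ∞ fun z => Pr 0 k (L z) := by
  unfold Pr
  simp only [Pi.zero_apply, Fd_zero_fun]
  refine contDiff_prod fun j _ => fi_smooth.comp ?_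
  exact ((contDiff_apply ℝ ℝ j).comp L.contDiff).sub contDiff_const

theorem Pr_has (a : Fin n → ℕ) (k : Fin n → ℤ) (z : E) :
    HasFDerivAt (fun z => Pr a k (L z)) (∑ i : Fin n,
      (∏ j ∈ Finset.univ.erase i, Fd (a j) (L z j - k j)) •
        Fd (a i + 1) (L z i - k i) • (ContinuousLinearMap.proj i ∘L L)) z := by
  have hg : ∀ j ∈ (Finset.univ : Finset (Fin n)), HasFDerivAt (fun z => Fd (a j) (L z j - k j))
      (Fd (a j + 1) (L z j - k j) • (ContinuousLinearMap.proj j ∘L L)) z := by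
    intro j _
    have h1 : HasFDerivAt (fun z => L z j - (k j : ℝ)) (ContinuousLinearMap.proj j ∘L L) z := by
      have h2 : HasFDerivAt (fun z => L z j)
          ((ContinuousLinearMap.proj j : (Fin n → ℝ) →L[ℝ] ℝ) ∘L L) z :=
        ((ContinuousLinearMap.proj j : (Fin n → ℝ) →L[ℝ] ℝ) ∘L L).hasFDerivAt
      exact h2.sub_const _
    exact (Fd_der (a j) (L z j - k j)).comp_hasFDerivAt z h1
  exact HasFDerivAt.finsetProd hg

theorem Pr_diff (a : Fin n → ℕ) (k : Fin n → ℤ) (z : E) :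
    DifferentiableAt ℝ (fun z => Pr a k (L z)) z := (Pr_has L a k z).differentiableAt

/-- The derivative in a direction `v` with `L v = c e_i`. -/
theorem Pr_fd (a : Fin n → ℕ) (k : Fin n → ℤ) (z v : E) {c : ℝ} {i : Fin n}
    (hv : L v = c • Pi.single i 1) :
    fderiv ℝ (fun z => Pr a k (L z)) z v = c * Pr (a + Pi.single i 1) k (L z) := by
  have e1 := (Pr_has L a k z).fderiv
  rw [e1]
  simp only [_root_.sum_apply, _root_.smul_apply, ContinuousLinearMap.comp_apply,
    ContinuousLinearMap.proj_apply, hv, Pi.smul_apply, smul_eq_mul, Pi.single_apply]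
  rw [Finset.sum_eq_single i]
  · rw [if_pos rfl]
    have e2 : Pr (a + Pi.single i 1) k (L z) = Fd (a i + 1) (L z i - k i) *
        ∏ j ∈ Finset.univ.erase i, Fd (a j) (L z j - k j) := by
      unfold Pr
      rw [← Finset.mul_prod_erase Finset.univ _ (Finset.mem_univ i)]
      congr 1
      · simp
      · refine Finset.prod_congr rfl fun j hj => ?_
        rw [Finset.mem_erase] at hj
        simp [Pi.single_eq_of_ne hj.1]
    rw [e2]; ring
  · intro j _ hj
    rw [if_neg hj]; ring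
  · intro h; exact absurd (Finset.mem_univ i) h

/-- The support. -/
theorem Pr_supp (k : Fin n → ℤ) :
    tsupport (fun z => Pr 0 k (L z)) ⊆ {z | ∀ j, |L z j - k j| ≤ 1} := by
  refine closure_minimal ?_ ?_
  · intro z hz j
    by_contra hc
    refine hz ?_
    have : Fd ((0 : Fin n → ℕ) j) (L z j - k j) = 0 := Fd_off _ (not_le.1 hc)
    exact Finset.prod_eq_zero (Finset.mem_univ j) this
  · rw [Set.ofPred_forall]
    refine isClosed_iInter fun j => ?_
    have h1 : Continuous fun z => |L z j - (k j : ℝ)| :=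
      ((((continuous_apply j).comp L.continuous)).sub continuous_const).abs
    exact isClosed_le h1 continuous_const

end der

end Vale.Agent.P088.R2.H858.B1
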