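import Vale.Agent.P088.R2.H676.F.Cd
import Vale.Agent.P088.R2.H858.B1.Part

/-!
# P088, zone B1: the lattice partition satisfies `Pc`

`L : E → ℝⁿ` is linear with `L σ.e_i = L τ.e_i = c e_i` (`L = A⁻¹ mid`, `c = 1/(2A)`).
-/

open MeasureTheory Set Filter
open scoped ContDiff Topology

noncomputable section

namespace Vale.Agent.P088.R2.H858.B1

open Vale.Agent.P088.R2.H961.GW Vale.Agent.P088.R2.H644 Vale.Agent.P088.R2.H676.F

variable {n : ℕ} {E : Type*} [NormedAddCommGroup E] [NormedSpace ℝ E]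

/-- A slot with constant derivations and `L e_i = c e_i`. -/
structure Lc (σ : Sl E (Fin n)) (L : E →L[ℝ] (Fin n → ℝ)) (c : ℝ) : Prop where
  ρ : ∀ z, σ.ρ z = 1
  e : ∀ i, L (σ.e i) = c • Pi.single i 1

/-- Bounds of a slot at a point. -/
structure Sb2 (σ : Sl E (Fin n)) (z : E) : Prop where
  s : ∀ i j, |σ.s i j z| ≤ 2
  d : ∀ l i j, |σ.D l (σ.s i j) z| ≤ 1
  k : ∀ i, σ.k i z = 0

section one

variable {σ : Sl E (Fin n)} {L : E →L[ℝ] (Fin n → ℝ)} {c : ℝ}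

theorem Lc.D1 (h : Lc σ L c) (a : Fin n → ℕ) (k : Fin n → ℤ) (i : Fin n) :
    σ.D i (fun z => Pr a k (L z)) = fun z => c * Pr (a + Pi.single i 1) k (L z) := by
  funext z
  unfold Sl.D
  rw [h.ρ, one_mul, Pr_fd L a k z (σ.e i) (h.e i)]

theorem Lc.D2 (h : Lc σ L c) (a : Fin n → ℕ) (k : Fin n → ℤ) (i j : Fin n) (z : E) :
    σ.D j (σ.D i fun z => Pr a k (L z)) z =
      c ^ 2 * Pr (a + Pi.single i 1 + Pi.single j 1) k (L z) := by
  rw [h.D1 a k i]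
  unfold Sl.D
  have e1 : (fun z => c * Pr (a + Pi.single i 1) k (L z)) =
      fun z => c • Pr (a + Pi.single i 1) k (L z) := rfl
  rw [h.ρ, one_mul, e1, fderiv_fun_const_smul (Pr_diff L _ k z)]
  rw [_root_.smul_apply, Pr_fd L _ k z (σ.e j) (h.e j)]
  simp only [smul_eq_mul]
  ring

/-- One summand of `Λ`. -/
theorem sq_add_le {s s' p q c : ℝ} (hs : |s| ≤ 2) (hs' : |s'| ≤ 1) (hc : |c| ≤ 1) :
    (s * (c ^ 2 * p) + s' * (c * q)) ^ 2 ≤ c ^ 2 * (8 * p ^ 2 + 2 * q ^ 2) := by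
  have h1 : (s * (c ^ 2 * p) + s' * (c * q)) ^ 2 ≤
      2 * (s * (c ^ 2 * p)) ^ 2 + 2 * (s' * (c * q)) ^ 2 := by
    nlinarith [sq_nonneg (s * (c ^ 2 * p) - s' * (c * q))]
  have s2 : s ^ 2 ≤ 4 := by
    rw [← sq_abs]
    calc |s| ^ 2 ≤ 2 ^ 2 := pow_le_pow_left₀ (abs_nonneg _) hs 2
      _ = 4 := by norm_num
  have s3 : s' ^ 2 ≤ 1 := by
    rw [← sq_abs]
    exact pow_le_one₀ (abs_nonneg _) hs'
  have c1 : c ^ 2 ≤ 1 := by
    rw [← sq_abs]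
    exact pow_le_one₀ (abs_nonneg _) hc
  have c4 : c ^ 2 * c ^ 2 ≤ c ^ 2 * 1 := mul_le_mul_of_nonneg_left c1 (sq_nonneg c)
  have h2 : (s * (c ^ 2 * p)) ^ 2 ≤ 4 * (c ^ 2 * p ^ 2) := by
    have e : (s * (c ^ 2 * p)) ^ 2 = s ^ 2 * (c ^ 2 * c ^ 2 * p ^ 2) := by ring
    rw [e]
    exact mul_le_mul s2 (mul_le_mul_of_nonneg_right (by linarith) (sq_nonneg p)) (by positivity)
      (by norm_num)
  have h3 : (s' * (c * q)) ^ 2 ≤ 1 * (c ^ 2 * q ^ 2) := by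
    have e : (s' * (c * q)) ^ 2 = s' ^ 2 * (c ^ 2 * q ^ 2) := by ring
    rw [e]
    exact mul_le_mul_of_nonneg_right s3 (by positivity)
  linarith

theorem ab2 (i j l : Fin n) : (0 + Pi.single i 1 + Pi.single j 1 : Fin n → ℕ) l ≤ 2 := by
  simp only [Pi.add_apply, Pi.zero_apply, Pi.single_apply]
  split_ifs <;> norm_num

theorem ab1 (i l : Fin n) : (0 + Pi.single i 1 : Fin n → ℕ) l ≤ 2 := by
  simp only [Pi.add_apply, Pi.zero_apply, Pi.single_apply]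
  split_ifs <;> norm_num

variable {B : ℝ} (hB : ∀ m ≤ 2, ∀ t, |Fd m t| ≤ B)
include hB

/-- The first derivatives. -/
theorem Lc.s1 (h : Lc σ L c) (M : ℕ) (z : E) :
    ∑ k ∈ SM n M, ∑ i, σ.D i (fun z => Pr 0 k (L z)) z ^ 2 ≤
      n * (c ^ 2 * (3 * B ^ 2) ^ n) := by
  rw [Finset.sum_comm]
  have t : ∀ i, ∑ k ∈ SM n M, σ.D i (fun z => Pr 0 k (L z)) z ^ 2 ≤
      c ^ 2 * (3 * B ^ 2) ^ n := by
    intro i
    have e : ∀ k ∈ SM n M, σ.D i (fun z => Pr 0 k (L z)) z ^ 2 =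
        c ^ 2 * Pr (0 + Pi.single i 1) k (L z) ^ 2 := fun k _ => by
      rw [h.D1]; ring
    rw [Finset.sum_congr rfl e, ← Finset.mul_sum]
    exact mul_le_mul_of_nonneg_left (sum_Pr_le hB M (ab1 i) (L z)) (sq_nonneg c)
  calc _ ≤ ∑ _i : Fin n, c ^ 2 * (3 * B ^ 2) ^ n := Finset.sum_le_sum fun i _ => t i
    _ = _ := by rw [Finset.sum_const, Finset.card_univ, Fintype.card_fin, nsmul_eq_mul]

/-- The operator. -/
theorem Lc.sL (h : Lc σ L c) (M : ℕ) {z : E} (S : Sb2 σ z) (hc : |c| ≤ 1) :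
    ∑ k ∈ SM n M, σ.Λ (fun z => Pr 0 k (L z)) z ^ 2 ≤
      10 * (n : ℝ) ^ 4 * (c ^ 2 * (3 * B ^ 2) ^ n) := by
  have t : ∀ k ∈ SM n M, σ.Λ (fun z => Pr 0 k (L z)) z ^ 2 ≤
      (n : ℝ) ^ 2 * ∑ i, ∑ j, c ^ 2 * (8 * Pr (0 + Pi.single j 1 + Pi.single i 1) k (L z) ^ 2 +
        2 * Pr (0 + Pi.single j 1) k (L z) ^ 2) := by
    intro k _
    have e : σ.Λ (fun z => Pr 0 k (L z)) z = ∑ i, ∑ j,
        (σ.s i j z * (c ^ 2 * Pr (0 + Pi.single j 1 + Pi.single i 1) k (L z)) +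
          σ.D i (σ.s i j) z * (c * Pr (0 + Pi.single j 1) k (L z))) := by
      unfold Sl.Λ
      refine Finset.sum_congr rfl fun i _ => Finset.sum_congr rfl fun j _ => ?_
      rw [h.D2, h.D1, S.k i]
      ring
    rw [e]
    have c1 : (∑ i, ∑ j, (σ.s i j z * (c ^ 2 * Pr (0 + Pi.single j 1 + Pi.single i 1) k (L z)) +
          σ.D i (σ.s i j) z * (c * Pr (0 + Pi.single j 1) k (L z)))) ^ 2 ≤
        (n : ℝ) * ∑ i, (∑ j, (σ.s i j z *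
          (c ^ 2 * Pr (0 + Pi.single j 1 + Pi.single i 1) k (L z)) +
          σ.D i (σ.s i j) z * (c * Pr (0 + Pi.single j 1) k (L z)))) ^ 2 := by
      have := sq_sum_le_card_mul_sum_sq (s := (Finset.univ : Finset (Fin n)))
        (f := fun i => ∑ j, (σ.s i j z * (c ^ 2 * Pr (0 + Pi.single j 1 + Pi.single i 1) k (L z)) +
          σ.D i (σ.s i j) z * (c * Pr (0 + Pi.single j 1) k (L z))))
      rw [Finset.card_univ, Fintype.card_fin] at this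
      exact this
    have n0 : (0:ℝ) ≤ n := Nat.cast_nonneg n
    have c2 : ∀ i, (∑ j, (σ.s i j z * (c ^ 2 * Pr (0 + Pi.single j 1 + Pi.single i 1) k (L z)) +
          σ.D i (σ.s i j) z * (c * Pr (0 + Pi.single j 1) k (L z)))) ^ 2 ≤
        (n : ℝ) * ∑ j, c ^ 2 * (8 * Pr (0 + Pi.single j 1 + Pi.single i 1) k (L z) ^ 2 +
        2 * Pr (0 + Pi.single j 1) k (L z) ^ 2) := by
      intro i
      have := sq_sum_le_card_mul_sum_sq (s := (Finset.univ : Finset (Fin n)))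
        (f := fun j => σ.s i j z * (c ^ 2 * Pr (0 + Pi.single j 1 + Pi.single i 1) k (L z)) +
          σ.D i (σ.s i j) z * (c * Pr (0 + Pi.single j 1) k (L z)))
      rw [Finset.card_univ, Fintype.card_fin] at this
      refine this.trans (mul_le_mul_of_nonneg_left (Finset.sum_le_sum fun j _ => ?_) n0)
      exact sq_add_le (S.s i j) (S.d i i j) hc
    have c3 := mul_le_mul_of_nonneg_left
      (Finset.sum_le_sum fun i (_ : i ∈ (Finset.univ : Finset (Fin n))) => c2 i) n0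
    refine c1.trans (c3.trans_eq ?_)
    rw [← Finset.mul_sum]
    ring
  refine (Finset.sum_le_sum t).trans ?_
  rw [← Finset.mul_sum, Finset.sum_comm]
  have t2 : ∀ i : Fin n, ∑ k ∈ SM n M, ∑ j, c ^ 2 *
      (8 * Pr (0 + Pi.single j 1 + Pi.single i 1) k (L z) ^ 2 +
        2 * Pr (0 + Pi.single j 1) k (L z) ^ 2) ≤ n * (10 * (c ^ 2 * (3 * B ^ 2) ^ n)) := by
    intro i
    rw [Finset.sum_comm]
    have t3 : ∀ j : Fin n, ∑ k ∈ SM n M, c ^ 2 *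
        (8 * Pr (0 + Pi.single j 1 + Pi.single i 1) k (L z) ^ 2 +
          2 * Pr (0 + Pi.single j 1) k (L z) ^ 2) ≤ 10 * (c ^ 2 * (3 * B ^ 2) ^ n) := by
      intro j
      rw [← Finset.mul_sum, Finset.sum_add_distrib, ← Finset.mul_sum, ← Finset.mul_sum]
      have p1 := sum_Pr_le hB M (ab2 j i) (L z)
      have p2 := sum_Pr_le hB M (ab1 j) (L z)
      have p3 := mul_le_mul_of_nonneg_left p1 (sq_nonneg c)
      have p4 := mul_le_mul_of_nonneg_left p2 (sq_nonneg c)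
      linarith
    calc _ ≤ ∑ _j : Fin n, 10 * (c ^ 2 * (3 * B ^ 2) ^ n) := Finset.sum_le_sum fun j _ => t3 j
      _ = _ := by rw [Finset.sum_const, Finset.card_univ, Fintype.card_fin, nsmul_eq_mul]
  calc (n : ℝ) ^ 2 * ∑ i, ∑ k ∈ SM n M, ∑ j, c ^ 2 *
      (8 * Pr (0 + Pi.single j 1 + Pi.single i 1) k (L z) ^ 2 +
        2 * Pr (0 + Pi.single j 1) k (L z) ^ 2)
      ≤ (n : ℝ) ^ 2 * ∑ _i : Fin n, n * (10 * (c ^ 2 * (3 * B ^ 2) ^ n)) :=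
        mul_le_mul_of_nonneg_left (Finset.sum_le_sum fun i _ => t2 i) (by positivity)
    _ = _ := by
        rw [Finset.sum_const, Finset.card_univ, Fintype.card_fin, nsmul_eq_mul]; ring

end one

/-- The upper bound of the Hessian form on pairs `(x q, y q)`. -/
def HB (σ τ : Sl E (Fin n)) (W e wc : E → ℝ) (b : ℝ) (z : E) : Prop :=
  ∀ (q : Fin n → ℝ) (x y : ℝ), Ch.TH σ τ W z (fun i => x * q i) (fun i => y * q i) ≤
    b * (e z * (x + y) ^ 2 + wc z * (x - y) ^ 2) * ∑ i, q i ^ 2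

/-- **The lattice partition satisfies `Pc`.** -/
theorem Pc_Pr {σ τ : Sl E (Fin n)} {L : E →L[ℝ] (Fin n → ℝ)} {c B b : ℝ} {W e wc : E → ℝ}
    (hB : ∀ m ≤ 2, ∀ t, |Fd m t| ≤ B) (h : Lc σ L c) (h' : Lc τ L c) (hc : |c| ≤ 1) (M : ℕ)
    {z : E} (S : Sb2 σ z) (S' : Sb2 τ z) (b0 : 0 ≤ b) (e0 : 0 ≤ e z) (w0 : 0 ≤ wc z)
    (H : HB σ τ W e wc b z) :
    Pc σ τ W e wc (SM n M) (fun k z => Pr 0 k (L z)) (8 * b * (n * (c ^ 2 * (3 * B ^ 2) ^ n)))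
      (20 * ((n : ℝ) + 1) ^ 4 * (c ^ 2 * (3 * B ^ 2) ^ n)) z := by
  have n0 : (0:ℝ) ≤ n := Nat.cast_nonneg n
  obtain ⟨β, hβ⟩ : ∃ β, β = c ^ 2 * (3 * B ^ 2) ^ n := ⟨_, rfl⟩
  have β0 : 0 ≤ β := by rw [hβ]; positivity
  have nn4 : (n : ℝ) ^ 4 ≤ ((n : ℝ) + 1) ^ 4 := pow_le_pow_left₀ n0 (by linarith) 4
  have nn1 : (n : ℝ) ≤ ((n : ℝ) + 1) ^ 4 := by
    have h1 : (n : ℝ) + 1 ≤ ((n : ℝ) + 1) ^ 4 := by
      simpa using pow_le_pow_right₀ (by linarith : (1:ℝ) ≤ n + 1) (show 1 ≤ 4 by norm_num)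
    linarith
  have nnβ := mul_le_mul_of_nonneg_right nn4 β0
  have nnβ1 := mul_le_mul_of_nonneg_right nn1 β0
  have d1 := h.s1 hB M z
  have d2 := h'.s1 hB M z
  have l1 := h.sL hB M S hc
  have l2 := h'.sL hB M S' hc
  rw [← hβ] at d1 d2 l1 l2 ⊢
  refine ⟨?_, ?_, ?_, fun x y => ?_⟩
  · rw [Finset.sum_add_distrib]
    have : 0 ≤ ((n : ℝ) + 1) ^ 4 * β := by positivity
    linarith
  · rw [Finset.sum_add_distrib]
    linarith
  · have t : ∀ k ∈ SM n M, ∑ i, ∑ j, (σ.D i (gj σ τ (fun z => Pr 0 k (L z)) j) z -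
        τ.D i (gj σ τ (fun z => Pr 0 k (L z)) j) z) ^ 2 = 0 := by
      intro k _
      refine Finset.sum_eq_zero fun i _ => Finset.sum_eq_zero fun j _ => ?_
      have e1 : gj σ τ (fun z => Pr 0 k (L z)) j = fun z =>
          (2 * c) • Pr (0 + Pi.single j 1) k (L z) := by
        funext w
        unfold gj
        rw [h.D1, h'.D1]
        simp only [smul_eq_mul]
        ring
      have e2 : ∀ ς : Sl E (Fin n), Lc ς L c →
          ς.D i (fun z => (2 * c) • Pr (0 + Pi.single j 1) k (L z)) z =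
          2 * c * (c * Pr (0 + Pi.single j 1 + Pi.single i 1) k (L z)) := by
        intro ς hς
        unfold Sl.D
        rw [hς.ρ, one_mul, fderiv_fun_const_smul (Pr_diff L _ k z), _root_.smul_apply,
          Pr_fd L _ k z (ς.e i) (hς.e i)]
        rfl
      rw [e1, e2 σ h, e2 τ h', sub_self]
      norm_num
    rw [Finset.sum_eq_zero t]
    positivity
  · have t : ∀ k ∈ SM n M, Ch.TH σ τ W z (fun i => x * σ.D i (fun z => Pr 0 k (L z)) z)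
        (fun i => y * τ.D i (fun z => Pr 0 k (L z)) z) ≤
        b * (e z * (x + y) ^ 2 + wc z * (x - y) ^ 2) *
          ∑ i, σ.D i (fun z => Pr 0 k (L z)) z ^ 2 := by
      intro k _
      have e1 : ∀ i, τ.D i (fun z => Pr 0 k (L z)) z = σ.D i (fun z => Pr 0 k (L z)) z := fun i => by
        rw [h.D1, h'.D1]
      simp only [e1]
      exact H (fun i => σ.D i (fun z => Pr 0 k (L z)) z) x y
    have t2 := Finset.sum_le_sum t
    rw [← Finset.mul_sum] at t2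
    have q0 : 0 ≤ b * (e z * (x + y) ^ 2 + wc z * (x - y) ^ 2) := by positivity
    have t3 := mul_le_mul_of_nonneg_left d1 q0
    linarith

/-- The cell `k`. -/
def cell (L : E →L[ℝ] (Fin n → ℝ)) (k : Fin n → ℤ) : Set E := {z | ∀ j, |L z j - k j| < 3 / 2}

/-- **The partition in the form needed for `Cd_sum`.** -/
theorem part_ex {σ τ : Sl E (Fin n)} {U Ω : Set E} {L : E →L[ℝ] (Fin n → ℝ)} {c B b : ℝ}
    {W e wc : E → ℝ}
    (hB : ∀ m ≤ 2, ∀ t, |Fd m t| ≤ B) (h : Lc σ L c) (h' : Lc τ L c) (hc : |c| ≤ 1)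
    (hΩ : IsOpen Ω) (S : ∀ z ∈ Ω, Sb2 σ z) (S' : ∀ z ∈ Ω, Sb2 τ z) (b0 : 0 ≤ b)
    (e0 : ∀ z ∈ Ω, 0 ≤ e z) (w0 : ∀ z ∈ Ω, 0 ≤ wc z) (H : ∀ z ∈ Ω, HB σ τ W e wc b z)
    (K : Set E) (hK : IsCompact K) (hKΩ : K ⊆ Ω) :
    ∃ (S : Finset (Fin n → ℤ)) (ψ : (Fin n → ℤ) → E → ℝ) (V : Set E),
      IsOpen V ∧ K ⊆ V ∧ V ⊆ Ω ∧ (∀ k ∈ S, Sm U (ψ k)) ∧
      (∀ k ∈ S, tsupport (ψ k) ∩ K ⊆ Ω ∩ cell L k) ∧
      (∀ z ∈ V, ∑ k ∈ S, ψ k z ^ 2 = 1) ∧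
      ∀ z ∈ V, Pc σ τ W e wc S ψ (8 * b * (n * (c ^ 2 * (3 * B ^ 2) ^ n)))
        (20 * ((n : ℝ) + 1) ^ 4 * (c ^ 2 * (3 * B ^ 2) ^ n)) z := by
  obtain ⟨R, hR⟩ : ∃ R : ℝ, ∀ z ∈ K, ‖L z‖ ≤ R :=
    hK.exists_bound_of_continuousOn L.continuous.continuousOn
  obtain ⟨M, hM⟩ := exists_nat_gt R
  have hV : IsOpen {z : E | ‖L z‖ < M} := isOpen_lt L.continuous.norm continuous_const
  have hj : ∀ z ∈ Ω ∩ {z : E | ‖L z‖ < M}, ∀ j, |L z j| < M := fun z hz j =>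
    lt_of_le_of_lt (norm_le_pi_norm (L z) j) hz.2
  refine ⟨SM n M, fun k z => Pr 0 k (L z), Ω ∩ {z | ‖L z‖ < M}, hΩ.inter hV,
    fun z hz => ⟨hKΩ hz, lt_of_le_of_lt (hR z hz) hM⟩, inter_subset_left, fun k _ =>
    (Pr_smooth L k).contDiffOn, fun k _ z hz => ⟨hKΩ hz.2, fun j => ?_⟩, fun z hz => ?_,
    fun z hz => ?_⟩
  · exact lt_of_le_of_lt (Pr_supp L k hz.1 j) (by norm_num)
  · exact sum_Pr_one (hj z hz)
  · exact Pc_Pr hB h h' hc M (S z hz.1) (S' z hz.1) b0 (e0 z hz.1) (w0 z hz.1) (H z hz.1)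

end Vale.Agent.P088.R2.H858.B1
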